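import Vale.Agent.Lib.P137.Concrete

/-! Endpoint gradient bound for the uncentered maximal function of integrable Lipschitz functions,
in every dimension at least two. -/

namespace Vale.Agent.Results.P137.GradientBoundLipschitz

open MeasureTheory
open scoped ENNReal NNReal

/-- For `d ≥ 2` there is a constant `C` such that for every integrable Lipschitz function `f` on
`ℝ^d` the uncentered maximal function `M` of `f` is finite everywhere, Lipschitz with the same
constant, and `∫ |∇ M f| ≤ C ∫ |∇ f|`. -/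
theorem result (d : ℕ) (hd : 2 ≤ d) :
    ∃ C : ℝ≥0, ∀ (f : EuclideanSpace ℝ (Fin d) → ℝ) (L : ℝ≥0),
      LipschitzWith L f → Integrable f volume →
      (∀ x, Vale.Agent.Lib.P137.uncenteredMax f x ≠ ∞) ∧
      LipschitzWith L (fun x => (Vale.Agent.Lib.P137.uncenteredMax f x).toReal) ∧
      ∫⁻ x, ‖fderiv ℝ (fun x => (Vale.Agent.Lib.P137.uncenteredMax f x).toReal) x‖ₑ ≤
        C * ∫⁻ x, ‖fderiv ℝ f x‖ₑ := by
  have hfr : 2 ≤ Module.finrank ℝ (EuclideanSpace ℝ (Fin d)) := by simpa using hd
  refine ⟨(Vale.Agent.Lib.P137.absConst (volume : Measure (EuclideanSpace ℝ (Fin d)))).toNNReal, ?_⟩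
  intro f L hL hI
  have h := Vale.Agent.Lib.P137.maxE_bound (μ := (volume : Measure (EuclideanSpace ℝ (Fin d)))) hfr hL hI
  have e : ((Vale.Agent.Lib.P137.absConst (volume : Measure (EuclideanSpace ℝ (Fin d)))).toNNReal : ℝ≥0∞) =
      Vale.Agent.Lib.P137.absConst (volume : Measure (EuclideanSpace ℝ (Fin d))) :=
    ENNReal.coe_toNNReal (Vale.Agent.Lib.P137.absConst_ne_top hfr)
  rw [e]
  exact h

end Vale.Agent.Results.P137.GradientBoundLipschitz
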