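import Vale.Agent.Lib.P137.SobolevMain

/-! Endpoint Sobolev regularity of the uncentered maximal function for all `W^{1,1}` inputs, in
every dimension at least two. -/

namespace Vale.Agent.Results.P137.SobolevRegularityUncentered

open MeasureTheory
open scoped ENNReal NNReal
open Vale.Agent.Lib.P137 (uncenteredMax IsWeakGradient)

/-- For `d ≥ 2` there is a constant `C` such that for every `f ∈ L¹(ℝ^d)` with a weak gradient
`G ∈ L¹(ℝ^d; ℝ^d)`, the uncentered maximal function `M f` is finite almost everywhere, is locally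
integrable and has a globally integrable weak gradient `H`, with `∫ |H| ≤ C ∫ |G|`. -/
theorem result (d : ℕ) (hd : 2 ≤ d) :
    ∃ C : ℝ≥0, ∀ (f : EuclideanSpace ℝ (Fin d) → ℝ)
      (G : EuclideanSpace ℝ (Fin d) → EuclideanSpace ℝ (Fin d)),
      Integrable f volume → Integrable G volume → IsWeakGradient f G →
      (∀ᵐ x, uncenteredMax f x ≠ ∞) ∧
      LocallyIntegrable (fun x => (uncenteredMax f x).toReal) volume ∧
      ∃ H : EuclideanSpace ℝ (Fin d) → EuclideanSpace ℝ (Fin d),
        Integrable H volume ∧ IsWeakGradient (fun x => (uncenteredMax f x).toReal) H ∧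
        ∫⁻ x, ‖H x‖ₑ ≤ C * ∫⁻ x, ‖G x‖ₑ := by
  have hfr : 2 ≤ Module.finrank ℝ (EuclideanSpace ℝ (Fin d)) := by simpa using hd
  have hC : (Module.finrank ℝ (EuclideanSpace ℝ (Fin d)) : ℝ≥0∞) *
      Vale.Agent.Lib.P137.absConst (volume : Measure (EuclideanSpace ℝ (Fin d))) ≠ ∞ :=
    ENNReal.mul_ne_top (ENNReal.natCast_ne_top _) (Vale.Agent.Lib.P137.absConst_ne_top hfr)
  refine ⟨((Module.finrank ℝ (EuclideanSpace ℝ (Fin d)) : ℝ≥0∞) *
      Vale.Agent.Lib.P137.absConst (volume : Measure (EuclideanSpace ℝ (Fin d)))).toNNReal, ?_⟩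
  intro f G hf hG hw
  have h := Vale.Agent.Lib.P137.sobolev_main (μ := (volume : Measure (EuclideanSpace ℝ (Fin d))))
    hfr hf hG hw
  rw [ENNReal.coe_toNNReal hC]
  exact h

end Vale.Agent.Results.P137.SobolevRegularityUncentered
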